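import Vale.Agent.P154.GWAvg
import Vale.Agent.P154.Q.Defs

/-! P154, coupling bound (`d |lam| ≤ 1` implies nonreconstruction): the overlap of two functions. -/

namespace Vale.Agent.P154C

/-- overlap `∑ min (f, g)` of two functions on a finite type (`1 -` total variation distance for probability vectors) -/
noncomputable def ov {X : Type} [Fintype X] (f g : X → ℝ) : ℝ := ∑ x, min (f x) (g x)

end Vale.Agent.P154C
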