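import Vale.Agent.P154.C.FDefs

namespace Vale.Agent.P154C

/-- [F1] calculus.  `F t = (b-a)/(a+b) * log t - log (b t + a) + log (a t + b)` has `F 1 = 0` and, for `t > 0`,
`F' t = (b-a)/(a+b)/t - (b^2-a^2)/((b t + a)(a t + b)) ≥ 0`, because
`(b t + a)(a t + b) - (a+b)^2 t = a b (t-1)^2 ≥ 0`.  Use `monotoneOn_of_deriv_nonneg` on `Set.Ici 1` (convex), or any other way. -/
theorem log_ratio_le {a b t : ℝ} (ha : 0 < a) (hab : a ≤ b) (ht : 1 ≤ t) :
    Real.log (b * t + a) - Real.log (a * t + b) ≤ (b - a) / (a + b) * Real.log t := by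
  have hb : 0 < b := lt_of_lt_of_le ha hab
  set F : ℝ → ℝ := fun s => (b - a) / (a + b) * Real.log s - Real.log (b * s + a)
    + Real.log (a * s + b) with hF
  have hder : ∀ s : ℝ, 0 < s → HasDerivAt F
      ((b - a) / (a + b) * s⁻¹ - b / (b * s + a) + a / (a * s + b)) s := by
    intro s hs
    have h1 : HasDerivAt (fun s : ℝ => Real.log s) s⁻¹ s := Real.hasDerivAt_log hs.ne'
    have h2 : HasDerivAt (fun s : ℝ => b * s + a) b s := by
      simpa using ((hasDerivAt_id s).const_mul b).add_const a
    have h3 : HasDerivAt (fun s : ℝ => a * s + b) a s := by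
      simpa using ((hasDerivAt_id s).const_mul a).add_const b
    have p2 : b * s + a ≠ 0 := by positivity
    have p3 : a * s + b ≠ 0 := by positivity
    exact ((h1.const_mul ((b - a) / (a + b))).sub (h2.log p2)).add (h3.log p3)
  have hmono : MonotoneOn F (Set.Ici 1) := by
    apply monotoneOn_of_deriv_nonneg (convex_Ici 1)
    · intro s hs
      have hs' : (0 : ℝ) < s := lt_of_lt_of_le one_pos hs
      exact (hder s hs').continuousAt.continuousWithinAt
    · intro s hs
      rw [interior_Ici] at hs
      have hs' : (0 : ℝ) < s := lt_trans one_pos hs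
      exact (hder s hs').differentiableAt.differentiableWithinAt
    · intro s hs
      rw [interior_Ici] at hs
      have hs' : (0 : ℝ) < s := lt_trans one_pos hs
      rw [(hder s hs').deriv]
      have p2 : 0 < b * s + a := by positivity
      have p3 : 0 < a * s + b := by positivity
      have p4 : 0 < a + b := by positivity
      have key : (b - a) / (a + b) * s⁻¹ - b / (b * s + a) + a / (a * s + b)
          = (b - a) * (a * b * (s - 1) ^ 2) / ((a + b) * s * (b * s + a) * (a * s + b)) := by
        field_simp
        ring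
      rw [key]
      apply div_nonneg
      · apply mul_nonneg (by linarith)
        positivity
      · positivity
  have h1 : F 1 ≤ F t := hmono (Set.mem_Ici.2 le_rfl) (Set.mem_Ici.2 ht) ht
  have hF1 : F 1 = 0 := by
    simp only [hF, Real.log_one, mul_zero, mul_one]
    rw [add_comm a b]
    ring
  rw [hF1] at h1
  simp only [hF] at h1
  linarith

end Vale.Agent.P154C
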