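import Vale.Agent.P154.C.F1

namespace Vale.Agent.P154C

/-- [F2a] case `y ≤ x` of [F2].  With `mi = a x + b y + b R ≤ mj = b x + a y + b R`:
`log mj - log mi ≤ log (b x + a y) - log (a x + b y)` (adding `b R ≥ 0` to numerator and denominator of a ratio `≥ 1` decreases it:
`mj * (a x + b y) ≤ (b x + a y) * mi`, then `Real.log_le_log` after `← Real.log_mul`/`Real.log_div`), and
`log (b x + a y) - log (a x + b y) = log (b t + a) - log (a t + b)` with `t = x / y ≥ 1`; then `log_ratio_le` ([F1], black box) and
`Real.log_div`.  Multiply by `(b - a) (x - y) ≥ 0`. -/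
theorem pointwise_le_of_le {a b x y R : ℝ} (ha : 0 < a) (hab : a ≤ b) (hy : 0 < y) (hxy : y ≤ x)
    (hR : 0 ≤ R) :
    ((a * x + b * y + b * R) - (b * x + a * y + b * R)) *
      (Real.log (a * x + b * y + b * R) - Real.log (b * x + a * y + b * R))
      ≤ (b - a) ^ 2 / (a + b) * ((x - y) * (Real.log x - Real.log y)) := by
  have hb : 0 < b := lt_of_lt_of_le ha hab
  have hx : 0 < x := lt_of_lt_of_le hy hxy
  have pmi : 0 < a * x + b * y + b * R := by positivity
  have pmj : 0 < b * x + a * y + b * R := by positivity
  have pn : 0 < b * x + a * y := by positivity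
  have pd : 0 < a * x + b * y := by positivity
  have h1 : Real.log (b * x + a * y + b * R) - Real.log (a * x + b * y + b * R)
      ≤ Real.log (b * x + a * y) - Real.log (a * x + b * y) := by
    have h : Real.log ((b * x + a * y + b * R) * (a * x + b * y))
        ≤ Real.log ((b * x + a * y) * (a * x + b * y + b * R)) := by
      apply Real.log_le_log (by positivity)
      have : 0 ≤ b * R * ((b - a) * (x - y)) :=
        mul_nonneg (mul_nonneg hb.le hR) (mul_nonneg (by linarith) (by linarith))
      nlinarith
    rw [Real.log_mul pmj.ne' pd.ne', Real.log_mul pn.ne' pmi.ne'] at h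
    linarith
  have ht : 1 ≤ x / y := by rwa [le_div_iff₀ hy, one_mul]
  have h2 := log_ratio_le ha hab ht
  have e1 : b * (x / y) + a = (b * x + a * y) / y := by field_simp
  have e2 : a * (x / y) + b = (a * x + b * y) / y := by field_simp
  rw [e1, e2, Real.log_div pn.ne' hy.ne', Real.log_div pd.ne' hy.ne', Real.log_div hx.ne' hy.ne'] at h2
  have h3 : Real.log (b * x + a * y + b * R) - Real.log (a * x + b * y + b * R)
      ≤ (b - a) / (a + b) * (Real.log x - Real.log y) := by linarith
  have h4 : 0 ≤ (b - a) * (x - y) := mul_nonneg (by linarith) (by linarith)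
  have h5 := mul_le_mul_of_nonneg_left h3 h4
  have e3 : ((a * x + b * y + b * R) - (b * x + a * y + b * R)) *
      (Real.log (a * x + b * y + b * R) - Real.log (b * x + a * y + b * R))
      = (b - a) * (x - y) * (Real.log (b * x + a * y + b * R) - Real.log (a * x + b * y + b * R)) := by
    ring
  have e4 : (b - a) ^ 2 / (a + b) * ((x - y) * (Real.log x - Real.log y))
      = (b - a) * (x - y) * ((b - a) / (a + b) * (Real.log x - Real.log y)) := by
    ring
  rw [e3, e4]
  exact h5

/-- [F2] both cases: `le_total x y`, the case `x ≤ y` is `pointwise_le_of_le` with `x`, `y` exchanged (then `linarith`/`ring_nf`: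
both sides are symmetric under the exchange). -/
theorem pointwise_le {a b x y R : ℝ} (ha : 0 < a) (hab : a ≤ b) (hx : 0 < x) (hy : 0 < y)
    (hR : 0 ≤ R) :
    ((a * x + b * y + b * R) - (b * x + a * y + b * R)) *
      (Real.log (a * x + b * y + b * R) - Real.log (b * x + a * y + b * R))
      ≤ (b - a) ^ 2 / (a + b) * ((x - y) * (Real.log x - Real.log y)) := by
  rcases le_total y x with h | h
  · exact pointwise_le_of_le ha hab hy h hR
  · have h1 := pointwise_le_of_le (R := R) ha hab hx h hR
    have e1 : ((a * x + b * y + b * R) - (b * x + a * y + b * R)) *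
        (Real.log (a * x + b * y + b * R) - Real.log (b * x + a * y + b * R)) =
        ((a * y + b * x + b * R) - (b * y + a * x + b * R)) *
        (Real.log (a * y + b * x + b * R) - Real.log (b * y + a * x + b * R)) := by
      rw [show a * y + b * x + b * R = b * x + a * y + b * R by ring,
        show b * y + a * x + b * R = a * x + b * y + b * R by ring]
      ring
    have e2 : (x - y) * (Real.log x - Real.log y) = (y - x) * (Real.log y - Real.log x) := by ring
    rw [e1, e2]
    exact h1

end Vale.Agent.P154C
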