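import Vale.Agent.P154.C.FDefs

namespace Vale.Agent.P154C

/-- [F3a] marginal of a product of probability vectors.  `(∏ j, f j (c j)) * h (c l) = ∏ j, f j (c j) * (if j = l then h' j (c j) else 1)`
is awkward because of the dependent type; easier: `Finset.prod_univ_sum` / `Fintype.piFinset_univ` applied to
`fun j x => f j x * (if e : j = l then h (e ▸ x) else 1)`, or induction, or `Function.update`/`Equiv.piSplitAt l`
(`Fintype.sum_equiv`, then `Fintype.sum_prod_type`, and the sum over the other coordinates is `∏ j ≠ l, ∑ x, f j x = 1`). -/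
theorem sum_pi_marginal {k : ℕ} {X : Fin k → Type} [∀ j, Fintype (X j)] (f : ∀ j, X j → ℝ)
    (sf : ∀ j, ∑ x, f j x = 1) (l : Fin k) (h : X l → ℝ) :
    ∑ c : ∀ j, X j, (∏ j, f j (c j)) * h (c l) = ∑ x, f l x * h x := by
  classical
  set F : ∀ j, X j → ℝ := fun j x => f j x * (if e : j = l then h (e ▸ x) else 1) with hF
  have h1 : ∀ c : ∀ j, X j, (∏ j, f j (c j)) * h (c l) = ∏ j, F j (c j) := by
    intro c
    simp only [hF]
    rw [Finset.prod_mul_distrib]
    congr 1
    rw [Finset.prod_eq_single l]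
    · simp
    · intro j _ hj
      simp [hj]
    · intro hl
      exact absurd (Finset.mem_univ l) hl
  have h2 : ∑ c : ∀ j, X j, ∏ j, F j (c j) = ∏ j, ∑ x, F j x := by
    rw [Finset.prod_univ_sum, Fintype.piFinset_univ]
  rw [Finset.sum_congr rfl (fun c _ => h1 c), h2, Finset.prod_eq_single l]
  · simp [hF]
  · intro j _ hj
    simp [hF, hj, sf j]
  · intro hl
    exact absurd (Finset.mem_univ l) hl

/-- [F3] the symmetrised divergence is additive over products.  `Real.log_prod` (factors `≠ 0`) gives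
`log ∏ f - log ∏ g = ∑ l, (log (f l (c l)) - log (g l (c l)))`; expand, exchange the sums (`Finset.sum_comm`), and use
`sum_pi_marginal` ([F3a], black box) for `f` and for `g` with `h x = log (f l x) - log (g l x)`. -/
theorem sk_pi {k : ℕ} {X : Fin k → Type} [∀ j, Fintype (X j)] (f g : ∀ j, X j → ℝ)
    (hf : ∀ j x, 0 < f j x) (hg : ∀ j x, 0 < g j x) (sf : ∀ j, ∑ x, f j x = 1)
    (sg : ∀ j, ∑ x, g j x = 1) :
    sk (fun c : ∀ j, X j => ∏ j, f j (c j)) (fun c : ∀ j, X j => ∏ j, g j (c j))
      = ∑ j, sk (f j) (g j) := by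
  unfold sk
  have h1 : ∀ c : ∀ j, X j,
      (∏ j, f j (c j) - ∏ j, g j (c j)) * (Real.log (∏ j, f j (c j)) - Real.log (∏ j, g j (c j)))
      = ∑ l, ((∏ j, f j (c j)) * (Real.log (f l (c l)) - Real.log (g l (c l)))
          - (∏ j, g j (c j)) * (Real.log (f l (c l)) - Real.log (g l (c l)))) := by
    intro c
    rw [Real.log_prod (fun j _ => (hf j (c j)).ne'), Real.log_prod (fun j _ => (hg j (c j)).ne'),
      ← Finset.sum_sub_distrib, Finset.mul_sum]
    apply Finset.sum_congr rfl
    intro l _
    ring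
  simp only [h1]
  rw [Finset.sum_comm]
  apply Finset.sum_congr rfl
  intro l _
  rw [Finset.sum_sub_distrib,
    sum_pi_marginal f sf l (fun x => Real.log (f l x) - Real.log (g l x)),
    sum_pi_marginal g sg l (fun x => Real.log (f l x) - Real.log (g l x)),
    ← Finset.sum_sub_distrib]
  apply Finset.sum_congr rfl
  intro x _
  ring

end Vale.Agent.P154C
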