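import Vale.Agent.P154.C.F2

namespace Vale.Agent.P154C

open Vale.Agent.P154Q (chan)

/-- [F4a] shape of the mixture: with `a = lam + (1-lam)/q`, `b = (1-lam)/q`, `R = ∑ s, L s - L i - L j`.
(`chan q lam i s = lam * (if i = s then 1 else 0) + (1-lam)/q`; `Finset.sum_add_distrib`, `Finset.sum_ite_eq`, `Finset.mul_sum`, `ring`.) -/
theorem mix_eq {q : ℕ} (lam : ℝ) (L : Fin q → ℝ) (i j : Fin q) :
    ∑ s, chan q lam i s * L s = (lam + (1 - lam) / q) * L i + (1 - lam) / q * L j
      + (1 - lam) / q * (∑ s, L s - L i - L j) := by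
  have h1 : ∀ s, chan q lam i s * L s = lam * (if i = s then L s else 0) + (1 - lam) / q * L s := by
    intro s
    unfold chan
    split_ifs <;> ring
  simp_rw [h1]
  rw [Finset.sum_add_distrib, ← Finset.mul_sum, ← Finset.mul_sum, Finset.sum_ite_eq]
  simp only [Finset.mem_univ, if_true]
  ring

/-- [F4b] `L i + L j ≤ ∑ s, L s` for `i ≠ j` (`Finset.add_sum_erase`, `Finset.single_le_sum` on `univ.erase i`). -/
theorem rest_nonneg {q : ℕ} (L : Fin q → ℝ) (hL : ∀ s, 0 ≤ L s) (i j : Fin q) (hij : i ≠ j) :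
    0 ≤ ∑ s, L s - L i - L j := by
  have h1 : ∑ s, L s = L i + ∑ s ∈ Finset.univ.erase i, L s :=
    (Finset.add_sum_erase _ _ (Finset.mem_univ i)).symm
  have h2 : L j ≤ ∑ s ∈ Finset.univ.erase i, L s :=
    Finset.single_le_sum (f := L) (fun s _ => hL s)
      (Finset.mem_erase.mpr ⟨hij.symm, Finset.mem_univ j⟩)
  linarith

/-- [F4] one step of the antiferromagnetic Potts channel contracts the symmetrised divergence.  Termwise (`Finset.mul_sum`,
`Finset.sum_le_sum`): rewrite both mixtures with `mix_eq` (for the second one use `mix_eq lam _ j i` and commute) and apply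
`pointwise_le` ([F2], black box) with `a = lam + (1-lam)/q`, `b = (1-lam)/q`, `x = L i x`, `y = L j x`, `R` = rest;
`b - a = -lam`, `a + b = lam + 2 * ((1-lam)/q)`. -/
theorem sk_mix_le {q : ℕ} {X : Type} [Fintype X] {lam : ℝ} (hlo : 0 < lam + (1 - lam) / q)
    (hneg : lam ≤ 0) (L : Fin q → X → ℝ) (hL : ∀ s x, 0 < L s x) (i j : Fin q) (hij : i ≠ j) :
    sk (fun x => ∑ s, chan q lam i s * L s x) (fun x => ∑ s, chan q lam j s * L s x)
      ≤ lam ^ 2 / (lam + 2 * ((1 - lam) / q)) * sk (L i) (L j) := by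
  unfold sk
  rw [Finset.mul_sum]
  apply Finset.sum_le_sum
  intro x _
  have hR := rest_nonneg (fun s => L s x) (fun s => (hL s x).le) i j hij
  have e1 := mix_eq lam (fun s => L s x) i j
  have e2 := mix_eq lam (fun s => L s x) j i
  beta_reduce at hR e1 e2
  have e2' : ∑ s, chan q lam j s * L s x = (1 - lam) / q * L i x + (lam + (1 - lam) / q) * L j x
      + (1 - lam) / q * (∑ s, L s x - L i x - L j x) := by
    rw [e2]
    ring
  have hab : lam + (1 - lam) / q ≤ (1 - lam) / q := by linarith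
  have key := pointwise_le (a := lam + (1 - lam) / q) (b := (1 - lam) / q) (x := L i x)
    (y := L j x) (R := ∑ s, L s x - L i x - L j x) hlo hab (hL i x) (hL j x) hR
  have c1 : ((1 - lam) / q - (lam + (1 - lam) / q)) ^ 2 / ((lam + (1 - lam) / q) + (1 - lam) / q)
      = lam ^ 2 / (lam + 2 * ((1 - lam) / q)) := by
    congr 1 <;> ring
  rw [c1] at key
  beta_reduce
  rw [e1, e2']
  exact key

end Vale.Agent.P154C
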