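import Vale.Agent.P154.C.FDefs

namespace Vale.Agent.P154C

/-- [F5a] `(x-y)^2/(x+y) ≤ (x-y)(log x - log y)`.  For `y ≤ x`: `log x - log y = log (x/y) ≥ 1 - y/x = (x-y)/x ≥ (x-y)/(x+y)`
(`Real.one_sub_inv_le_log_of_pos`); the other case by symmetry. -/
theorem sq_div_le {x y : ℝ} (hx : 0 < x) (hy : 0 < y) :
    (x - y) ^ 2 / (x + y) ≤ (x - y) * (Real.log x - Real.log y) := by
  have aux : ∀ x y : ℝ, 0 < x → 0 < y → y ≤ x →
      (x - y) ^ 2 / (x + y) ≤ (x - y) * (Real.log x - Real.log y) := by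
    intro x y hx hy hxy
    have h1 : 1 - (x / y)⁻¹ ≤ Real.log (x / y) := Real.one_sub_inv_le_log_of_pos (by positivity)
    rw [Real.log_div hx.ne' hy.ne', inv_div] at h1
    have h2 : (x - y) / (x + y) ≤ 1 - y / x := by
      rw [div_le_iff₀ (by positivity)]
      have e : (1 - y / x) * (x + y) = (x - y) + (x - y) * y / x := by
        field_simp
      rw [e]
      have : 0 ≤ (x - y) * y / x := by
        apply div_nonneg (mul_nonneg (by linarith) hy.le) hx.le
      linarith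
    have h3 : (x - y) ^ 2 / (x + y) = (x - y) * ((x - y) / (x + y)) := by
      rw [sq, mul_div_assoc]
    rw [h3]
    exact mul_le_mul_of_nonneg_left (h2.trans h1) (by linarith)
  rcases le_total y x with h | h
  · exact aux x y hx hy h
  · have := aux y x hy hx h
    have e1 : (x - y) ^ 2 / (x + y) = (y - x) ^ 2 / (y + x) := by
      rw [add_comm x y]
      congr 1
      ring
    have e2 : (x - y) * (Real.log x - Real.log y) = (y - x) * (Real.log y - Real.log x) := by ring
    rw [e1, e2]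
    exact this

/-- [F5] Cauchy-Schwarz: `(∑ |f-g|)^2 ≤ (∑ (f-g)^2/(f+g)) (∑ (f+g)) = 2 ∑ (f-g)^2/(f+g) ≤ 2 sk f g`
(`Finset.sq_sum_div_le_sum_sq_div` with weights `f + g > 0`, `sq_abs`, then `sq_div_le` [F5a], black box). -/
theorem sq_sum_abs_le {X : Type} [Fintype X] (f g : X → ℝ) (hf : ∀ x, 0 < f x) (hg : ∀ x, 0 < g x)
    (sf : ∑ x, f x = 1) (sg : ∑ x, g x = 1) : (∑ x, |f x - g x|) ^ 2 ≤ 2 * sk f g := by
  have h1 := Finset.sq_sum_div_le_sum_sq_div (Finset.univ : Finset X) (fun x => |f x - g x|)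
    (g := fun x => f x + g x) (fun x _ => add_pos (hf x) (hg x))
  have h2 : ∑ x, (f x + g x) = 2 := by
    rw [Finset.sum_add_distrib, sf, sg]; norm_num
  rw [h2] at h1
  have h3 : ∑ x, |f x - g x| ^ 2 / (f x + g x) ≤ sk f g := by
    unfold sk
    apply Finset.sum_le_sum
    intro x _
    rw [sq_abs]
    exact sq_div_le (hf x) (hg x)
  have h4 : (∑ x, |f x - g x|) ^ 2 / 2 ≤ sk f g := h1.trans h3
  linarith

end Vale.Agent.P154C
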