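import Vale.Agent.P154.C.Defs

/-! P154, symmetric entropy bound: definitions. -/

namespace Vale.Agent.P154C

/-- symmetrised Kullback-Leibler divergence of two positive functions on a finite type -/
noncomputable def sk {X : Type} [Fintype X] (f g : X → ℝ) : ℝ :=
  ∑ x, (f x - g x) * (Real.log (f x) - Real.log (g x))

end Vale.Agent.P154C
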