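import Vale.Agent.P154.C.Defs

namespace Vale.Agent.P154C

open Vale.Agent.P154 (Shape pois gw gw_nonneg hasSum_cmul hasSum_pi hasSum_shape hasSum_pois pois_nonneg)

/-- [R6] Poisson generating function; copy the proof of `Vale.Agent.P154.hasSum_pois` (GWAvg.lean) with
`NormedSpace.expSeries_div_hasSum_exp (d * U)`. -/
theorem hasSum_pois_pow (d U : ℝ) :
    HasSum (fun k : ℕ => pois d k * U ^ k) (Real.exp (-(d * (1 - U)))) := by
  have h := hasSum_cmul (NormedSpace.expSeries_div_hasSum_exp (d * U : ℝ)) (Real.exp (-d))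
  rw [← Real.exp_eq_exp_ℝ, ← Real.exp_add] at h
  have e1 : -d + d * U = -(d * (1 - U)) := by ring
  rw [e1] at h
  have e : (fun k : ℕ => pois d k * U ^ k) =
      fun k : ℕ => Real.exp (-d) * ((d * U) ^ k / (k.factorial : ℝ)) := by
    funext k
    unfold pois
    rw [mul_pow]
    ring
  rw [e]
  exact h

/-- [R7] mean over the Galton-Watson tree of a product over the children; copy the proof of
`Vale.Agent.P154.hasSum_gw` / `hasSum_gw_two` (GWAvg.lean): `hasSum_shape` with `G k = pois d k * U ^ k`, `hasSum_pi` for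
`fun _ s => gw d n s * u s`, then `hasSum_pois_pow`. -/
theorem hasSum_gw_prod {d : ℝ} (hd : 0 ≤ d) {n : ℕ} {u : Shape n → ℝ} {U : ℝ}
    (hu : ∀ T, 0 ≤ u T) (hU : HasSum (fun T => gw d n T * u T) U) :
    HasSum (fun T : Shape (n + 1) => gw d (n + 1) T * ∏ j, u (T.2 j))
      (Real.exp (-(d * (1 - U)))) := by
  refine hasSum_shape (G := fun k => pois d k * U ^ k)
    (fun T => mul_nonneg (gw_nonneg hd (n + 1) T) (Finset.prod_nonneg fun j _ => hu _))
    (fun k => ?_) (hasSum_pois_pow d U)
  show HasSum (fun t : Fin k → Shape n => pois d k * (∏ j, gw d n (t j)) * ∏ j, u (t j)) _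
  have h := hasSum_cmul (hasSum_pi (fun (_ : Fin k) s => gw d n s * u s) (fun _ => U)
    (fun _ s => mul_nonneg (gw_nonneg hd n s) (hu s)) (fun _ => hU)) (pois d k)
  simp only [Finset.prod_mul_distrib, Finset.prod_const, Finset.card_univ, Fintype.card_fin] at h
  simp only [mul_assoc]
  exact h

end Vale.Agent.P154C
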