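import Vale.Agent.P154.C.Reg
import Vale.Agent.P154.C.R6

/-! P154, coupling bound on the Poisson Galton-Watson tree: `d |lam| ≤ 1` implies nonreconstruction. -/

namespace Vale.Agent.P154C

open Vale.Agent.P154Q Filter Topology
open Vale.Agent.P154 (Shape pois gw mGW gw_nonneg hasSum_gw hasSum_cmul summable_gw_mul mGW_nonneg)

variable {q : ℕ} [hq : Fact (2 ≤ q)]

/-- total variation distance between the laws of the leaves of `T` for the root spins `i`, `j` -/
noncomputable def tT (q : ℕ) (lam : ℝ) (n : ℕ) (i j : Fin q) (T : Shape n) : ℝ :=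
  1 - ov (leafLawT q lam n T i) (leafLawT q lam n T j)

theorem tT_nonneg (lam : ℝ) (n : ℕ) (i j : Fin q) (T : Shape n) : 0 ≤ tT q lam n i j T := by
  have := ov_le (leafLawT q lam n T i) (leafLawT q lam n T j)
  rw [leafLawT_sum] at this
  unfold tT
  linarith

theorem tT_le_one {lam : ℝ} (h0 : -(1 / ((q : ℝ) - 1)) ≤ lam) (h1 : lam ≤ 1) (n : ℕ)
    (i j : Fin q) (T : Shape n) : tT q lam n i j T ≤ 1 := by
  have := ov_nonneg (leafLawT_nonnegN h0 h1 n T i) (leafLawT_nonnegN h0 h1 n T j)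
  unfold tT
  linarith

theorem tT_succ_le {lam : ℝ} (h0 : -(1 / ((q : ℝ) - 1)) ≤ lam) (h1 : lam ≤ 1) (n : ℕ)
    (i j : Fin q) (k : ℕ) (t : Fin k → Shape n) :
    ∏ l, (1 - |lam| * tT q lam n i j (t l)) ≤ 1 - tT q lam (n + 1) i j ⟨k, t⟩ := by
  have hm : ∀ (a : Fin q) (l : Fin k) (x : Cfg q n (t l)),
      0 ≤ ∑ s, chan q lam a s * leafLawT q lam n (t l) s x :=
    fun a l x => Finset.sum_nonneg fun s _ =>
      mul_nonneg (chan_nonnegN h0 h1 a s) (leafLawT_nonnegN h0 h1 n (t l) s x)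
  have key := prod_ov_le (k := k) (X := fun l => Cfg q n (t l))
    (fun l x => ∑ s, chan q lam i s * leafLawT q lam n (t l) s x)
    (fun l x => ∑ s, chan q lam j s * leafLawT q lam n (t l) s x) (hm i) (hm j)
  have e1 : ∀ l, ov (fun x => ∑ s, chan q lam i s * leafLawT q lam n (t l) s x)
      (fun x => ∑ s, chan q lam j s * leafLawT q lam n (t l) s x)
      = 1 - |lam| * tT q lam n i j (t l) := fun l =>
    ov_mix q_pos' lam (leafLawT q lam n (t l)) (leafLawT_sum lam n (t l)) i j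
  simp only [e1] at key
  have e : tT q lam (n + 1) i j ⟨k, t⟩ = 1 - ov (fun c : (l : Fin k) → Cfg q n (t l) =>
      ∏ l, ∑ s, chan q lam i s * leafLawT q lam n (t l) s (c l))
      (fun c : (l : Fin k) → Cfg q n (t l) =>
      ∏ l, ∑ s, chan q lam j s * leafLawT q lam n (t l) s (c l)) := rfl
  rw [e]
  linarith

theorem aT_le {lam : ℝ} (h0 : -(1 / ((q : ℝ) - 1)) ≤ lam) (h1 : lam ≤ 1) (n : ℕ) (T : Shape n) :
    aT q lam n T ≤ ∑ i, ∑ j, tT q lam n i j T :=
  a_le q_pos' (leafLawT q lam n T) (leafLawT_nonnegN h0 h1 n T) (leafLawT_sum lam n T)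

theorem mGW_le_one {d : ℝ} (hd : 0 ≤ d) {n : ℕ} {h : Shape n → ℝ} (h0 : ∀ T, 0 ≤ h T)
    (h1 : ∀ T, h T ≤ 1) : mGW d n h ≤ 1 :=
  hasSum_le (fun T => mul_le_of_le_one_right (gw_nonneg hd n T) (h1 T))
    (summable_gw_mul hd h0 h1).hasSum (hasSum_gw hd n)

theorem tau_succ_le {d lam : ℝ} (hd : 0 ≤ d) (h0 : -(1 / ((q : ℝ) - 1)) ≤ lam) (h1 : lam ≤ 1)
    (hl1 : |lam| ≤ 1) (n : ℕ) (i j : Fin q) :
    mGW d (n + 1) (tT q lam (n + 1) i j) ≤
      1 - Real.exp (-(d * (|lam| * mGW d n (tT q lam n i j)))) := by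
  have hl0 : 0 ≤ |lam| := abs_nonneg lam
  have hX := (summable_gw_mul hd (tT_nonneg lam n i j) (tT_le_one h0 h1 n i j)).hasSum
  have hX' := (summable_gw_mul hd (tT_nonneg lam (n + 1) i j) (tT_le_one h0 h1 (n + 1) i j)).hasSum
  have hu0 : ∀ T, 0 ≤ 1 - |lam| * tT q lam n i j T := fun T => by
    have a := tT_nonneg lam n i j T
    have b := tT_le_one h0 h1 n i j T
    nlinarith
  have hU : HasSum (fun T => gw d n T * (1 - |lam| * tT q lam n i j T))
      (1 - |lam| * mGW d n (tT q lam n i j)) := by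
    have h := (hasSum_gw hd n).sub (hasSum_cmul hX |lam|)
    have e : (fun T => gw d n T * (1 - |lam| * tT q lam n i j T)) =
        fun T => gw d n T - |lam| * (gw d n T * tT q lam n i j T) := by
      funext T
      ring
    rw [e]
    exact h
  have hP := hasSum_gw_prod hd hu0 hU
  have hQ : HasSum (fun T => gw d (n + 1) T * (1 - tT q lam (n + 1) i j T))
      (1 - mGW d (n + 1) (tT q lam (n + 1) i j)) := by
    have h := (hasSum_gw hd (n + 1)).sub hX'
    have e : (fun T => gw d (n + 1) T * (1 - tT q lam (n + 1) i j T)) =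
        fun T => gw d (n + 1) T - gw d (n + 1) T * tT q lam (n + 1) i j T := by
      funext T
      ring
    rw [e]
    exact h
  have hle := hasSum_le (fun T => by
    obtain ⟨k, t⟩ := T
    exact mul_le_mul_of_nonneg_left (tT_succ_le h0 h1 n i j k t) (gw_nonneg hd (n + 1) _)) hP hQ
  have e2 : d * (1 - (1 - |lam| * mGW d n (tT q lam n i j))) =
      d * (|lam| * mGW d n (tT q lam n i j)) := by ring
  rw [e2] at hle
  linarith

/-- coupling bound: nonreconstruction on the Poisson(`d`) Galton-Watson tree whenever `d |lam| ≤ 1` -/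
theorem gw_coupling {d lam : ℝ} (hd : 0 < d) (h0 : -(1 / ((q : ℝ) - 1)) ≤ lam) (h1 : lam ≤ 1)
    (hc : d * |lam| ≤ 1) :
    (∀ n, Summable fun T => gw d n T * aT q lam n T) ∧ Tendsto (aGW q d lam) atTop (𝓝 0) := by
  have hsum : ∀ n, Summable fun T => gw d n T * aT q lam n T := fun n =>
    summable_gw_mul hd.le (aT_nonnegN h0 h1 n) (aT_le_oneN h0 h1 n)
  refine ⟨hsum, ?_⟩
  have hq2 : (2 : ℝ) ≤ q := by exact_mod_cast hq.out
  have hq1 : 1 / ((q : ℝ) - 1) ≤ 1 := by
    rw [div_le_one (by linarith)]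
    linarith
  have hl1 : |lam| ≤ 1 := abs_le.2 ⟨by linarith, h1⟩
  have ht : ∀ i j : Fin q, Tendsto (fun n => mGW d n (tT q lam n i j)) atTop (𝓝 0) := by
    intro i j
    refine tendsto_zero_of_rec_pow (c := 1 / 4) (m := 2) (by norm_num)
      (fun n => mGW_nonneg hd.le (tT_nonneg lam n i j)) fun n => ?_
    have t0 := mGW_nonneg hd.le (tT_nonneg lam n i j)
    have t1 := mGW_le_one hd.le (tT_nonneg lam n i j) (tT_le_one h0 h1 n i j)
    have h2 := tau_succ_le hd.le h0 h1 hl1 n i j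
    have h3 : d * (|lam| * mGW d n (tT q lam n i j)) ≤ mGW d n (tT q lam n i j) := by
      have := mul_le_mul_of_nonneg_right hc t0
      linarith
    have h4 : Real.exp (-(mGW d n (tT q lam n i j))) ≤
        Real.exp (-(d * (|lam| * mGW d n (tT q lam n i j)))) := Real.exp_le_exp.2 (by linarith)
    have h5 := exp_lower t0 (by linarith)
    linarith
  have hs : Tendsto (fun n => ∑ i, ∑ j, mGW d n (tT q lam n i j)) atTop (𝓝 0) := by
    have := tendsto_finsetSum (Finset.univ : Finset (Fin q)) fun i _ =>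
      tendsto_finsetSum (Finset.univ : Finset (Fin q)) fun j _ => ht i j
    simpa using this
  refine squeeze_zero (fun n => tsum_nonneg fun T =>
    mul_nonneg (gw_nonneg hd.le n T) (aT_nonnegN h0 h1 n T)) (fun n => ?_) hs
  have hB : HasSum (fun T => ∑ i, ∑ j, gw d n T * tT q lam n i j T)
      (∑ i, ∑ j, mGW d n (tT q lam n i j)) :=
    hasSum_sum fun i _ => hasSum_sum fun j _ =>
      (summable_gw_mul hd.le (tT_nonneg lam n i j) (tT_le_one h0 h1 n i j)).hasSum
  refine hasSum_le (fun T => ?_) (hsum n).hasSum hB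
  have := mul_le_mul_of_nonneg_left (aT_le h0 h1 n T) (gw_nonneg hd.le n T)
  simp only [Finset.mul_sum] at this
  exact this

end Vale.Agent.P154C
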