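import Vale.Agent.P154.C.FReg
import Vale.Agent.P154.C.GWc

/-! P154, symmetric entropy bound on the Poisson Galton-Watson tree. -/

namespace Vale.Agent.P154C

open Vale.Agent.P154Q Filter Topology
open Vale.Agent.P154 (Shape pois gw mGW gw_nonneg hasSum_gw hasSum_cmul summable_gw_mul mGW_nonneg
  hasSum_gw_sum sq_mGW_le)

variable {q : ℕ} [hq : Fact (2 ≤ q)]

/-- law of the leaves of `T` hanging below a child, given the spin of the parent -/
noncomputable def mT (q : ℕ) (lam : ℝ) (n : ℕ) (T : Shape n) (i : Fin q) (x : Cfg q n T) : ℝ :=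
  ∑ s, chan q lam i s * leafLawT q lam n T s x

theorem mT_pos {lam : ℝ} (hlo : 0 < lam + (1 - lam) / q) (hneg : lam ≤ 0) :
    ∀ (n : ℕ) (T : Shape n) (i : Fin q) (x : Cfg q n T), 0 < mT q lam n T i x
  | 0, _, i, x => by
    have e : ∀ y : Fin q, ∑ s, chan q lam i s * (if y = s then (1 : ℝ) else 0) = chan q lam i y :=
      fun y => by simp
    have e2 : mT q lam 0 _ i x = chan q lam i x := e x
    rw [e2]
    exact chan_pos hlo hneg i x
  | n + 1, ⟨k, t⟩, i, x => by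
    refine Finset.sum_pos (fun s _ => mul_pos (chan_pos hlo hneg i s) ?_) ⟨i, Finset.mem_univ i⟩
    exact Finset.prod_pos fun l _ => mT_pos hlo hneg n (t l) s (x l)

theorem mT_sum (lam : ℝ) (n : ℕ) (T : Shape n) (i : Fin q) : ∑ x, mT q lam n T i x = 1 := by
  unfold mT
  rw [Finset.sum_comm]
  simp only [← Finset.mul_sum, leafLawT_sum lam n T, mul_one, chan_sum]

theorem leafLawT_succ_pos {lam : ℝ} (hlo : 0 < lam + (1 - lam) / q) (hneg : lam ≤ 0)
    (n k : ℕ) (t : Fin k → Shape n) (i : Fin q) (c : Cfg q (n + 1) ⟨k, t⟩) :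
    0 < leafLawT q lam (n + 1) ⟨k, t⟩ i c :=
  Finset.prod_pos fun l _ => mT_pos hlo hneg n (t l) i (c l)

noncomputable def JT (q : ℕ) (lam : ℝ) (i j : Fin q) (n : ℕ) (T : Shape n) : ℝ :=
  sk (mT q lam n T i) (mT q lam n T j)

noncomputable def skT (q : ℕ) (lam : ℝ) (i j : Fin q) (n : ℕ) (T : Shape n) : ℝ :=
  sk (leafLawT q lam n T i) (leafLawT q lam n T j)

theorem JT_nonneg {lam : ℝ} (hlo : 0 < lam + (1 - lam) / q) (hneg : lam ≤ 0) (i j : Fin q)
    (n : ℕ) (T : Shape n) : 0 ≤ JT q lam i j n T :=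
  sk_nonneg _ _ (mT_pos hlo hneg n T i) (mT_pos hlo hneg n T j) (mT_sum lam n T i)
    (mT_sum lam n T j)

theorem JT_le_skT {lam : ℝ} (hlo : 0 < lam + (1 - lam) / q) (hneg : lam ≤ 0) (i j : Fin q)
    (hij : i ≠ j) (n : ℕ) (T : Shape n) (hpos : ∀ s x, 0 < leafLawT q lam n T s x) :
    JT q lam i j n T ≤ lam ^ 2 / (lam + 2 * ((1 - lam) / q)) * skT q lam i j n T :=
  sk_mix_le hlo hneg (leafLawT q lam n T) hpos i j hij

theorem tT_sq_le {lam : ℝ} (i j : Fin q) (n : ℕ) (T : Shape n)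
    (hpos : ∀ s x, 0 < leafLawT q lam n T s x) :
    (tT q lam n i j T) ^ 2 ≤ 1 / 2 * skT q lam i j n T :=
  one_sub_ov_sq_le _ _ (hpos i) (hpos j) (leafLawT_sum lam n T i) (leafLawT_sum lam n T j)

theorem sk_leafLawT {lam : ℝ} (hlo : 0 < lam + (1 - lam) / q) (hneg : lam ≤ 0)
    (n k : ℕ) (t : Fin k → Shape n) (i j : Fin q) :
    skT q lam i j (n + 1) ⟨k, t⟩ = ∑ l, JT q lam i j n (t l) :=
  sk_pi (k := k) (X := fun l => Cfg q n (t l)) (fun l => mT q lam n (t l) i)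
    (fun l => mT q lam n (t l) j) (fun l => mT_pos hlo hneg n (t l) i)
    (fun l => mT_pos hlo hneg n (t l) j) (fun l => mT_sum lam n (t l) i)
    (fun l => mT_sum lam n (t l) j)

theorem JT_succ_le {lam : ℝ} (hlo : 0 < lam + (1 - lam) / q) (hneg : lam ≤ 0)
    (n k : ℕ) (t : Fin k → Shape n) (i j : Fin q) (hij : i ≠ j) :
    JT q lam i j (n + 1) ⟨k, t⟩ ≤
      lam ^ 2 / (lam + 2 * ((1 - lam) / q)) * ∑ l, JT q lam i j n (t l) := by
  rw [← sk_leafLawT hlo hneg n k t i j]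
  exact JT_le_skT hlo hneg i j hij (n + 1) ⟨k, t⟩ (leafLawT_succ_pos hlo hneg n k t)

/-- dominating sequence -/
noncomputable def yT (κ J0 : ℝ) : (n : ℕ) → Shape n → ℝ
  | 0, _ => J0
  | n + 1, ⟨k, t⟩ => κ * ∑ l : Fin k, yT κ J0 n (t l)

theorem yT_nonneg {κ J0 : ℝ} (hκ : 0 ≤ κ) (hJ : 0 ≤ J0) : ∀ (n : ℕ) (T : Shape n), 0 ≤ yT κ J0 n T
  | 0, _ => hJ
  | n + 1, ⟨k, t⟩ => mul_nonneg hκ (Finset.sum_nonneg fun l _ => yT_nonneg hκ hJ n (t l))

theorem hasSum_yT {d κ J0 : ℝ} (hd : 0 ≤ d) (hκ : 0 ≤ κ) (hJ : 0 ≤ J0) :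
    ∀ n, HasSum (fun T => gw d n T * yT κ J0 n T) ((κ * d) ^ n * J0)
  | 0 => by
    have h := hasSum_cmul (hasSum_gw hd 0) J0
    have e : (fun T : Shape 0 => gw d 0 T * yT κ J0 0 T) = fun T => J0 * gw d 0 T := by
      funext T
      show gw d 0 T * J0 = _
      ring
    rw [e]
    simpa using h
  | n + 1 => by
    have h := hasSum_cmul (hasSum_gw_sum hd (yT_nonneg hκ hJ n) (hasSum_yT hd hκ hJ n)) κ
    have e : (fun T : Shape (n + 1) => gw d (n + 1) T * yT κ J0 (n + 1) T) =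
        fun T => κ * (gw d (n + 1) T * ∑ l, yT κ J0 n (T.2 l)) := by
      funext T
      obtain ⟨k, t⟩ := T
      show gw d (n + 1) ⟨k, t⟩ * (κ * ∑ l, yT κ J0 n (t l)) = _
      ring
    rw [e]
    have e2 : (κ * d) ^ (n + 1) * J0 = κ * (d * ((κ * d) ^ n * J0)) := by ring
    rw [e2]
    exact h

theorem JT_le_yT {lam : ℝ} (hlo : 0 < lam + (1 - lam) / q) (hneg : lam ≤ 0) (i j : Fin q)
    (hij : i ≠ j) (hκ : 0 ≤ lam ^ 2 / (lam + 2 * ((1 - lam) / q))) :
    ∀ (n : ℕ) (T : Shape n), JT q lam i j n T ≤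
      yT (lam ^ 2 / (lam + 2 * ((1 - lam) / q))) (JT q lam i j 0 ()) n T
  | 0, _ => le_rfl
  | n + 1, ⟨k, t⟩ =>
    (JT_succ_le hlo hneg n k t i j hij).trans (mul_le_mul_of_nonneg_left
      (Finset.sum_le_sum fun l _ => JT_le_yT hlo hneg i j hij hκ n (t l)) hκ)

/-- symmetric entropy bound: nonreconstruction on the Poisson(`d`) Galton-Watson tree for `lam ≤ 0`
whenever `d * lam ^ 2 / (lam + 2 (1 - lam) / q) < 1` -/
theorem gw_entropy {d lam : ℝ} (hd : 0 < d) (h0 : -(1 / ((q : ℝ) - 1)) ≤ lam)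
    (hlo : 0 < lam + (1 - lam) / q) (hneg : lam ≤ 0)
    (hc : lam ^ 2 / (lam + 2 * ((1 - lam) / q)) * d < 1) :
    (∀ n, Summable fun T => gw d n T * aT q lam n T) ∧ Tendsto (aGW q d lam) atTop (𝓝 0) := by
  have h1 : lam ≤ 1 := by linarith
  have hsum : ∀ n, Summable fun T => gw d n T * aT q lam n T := fun n =>
    summable_gw_mul hd.le (aT_nonnegN h0 h1 n) (aT_le_oneN h0 h1 n)
  refine ⟨hsum, ?_⟩
  have hb : 0 < (1 - lam) / q := div_pos (by linarith) q_pos
  have hk : 0 ≤ lam ^ 2 / (lam + 2 * ((1 - lam) / q)) := div_nonneg (sq_nonneg _) (by linarith)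
  have ht : ∀ i j : Fin q, Tendsto (fun n => mGW d n (tT q lam n i j)) atTop (𝓝 0) := by
    intro i j
    by_cases hij : i = j
    · subst hij
      have : ∀ n, mGW d n (tT q lam n i i) = 0 := fun n => by
        have e : tT q lam n i i = fun _ => 0 := by
          funext T
          unfold tT
          rw [ov_self, leafLawT_sum]
          ring
        rw [e]
        unfold mGW
        simp
      simp only [this]
      exact tendsto_const_nhds
    · have hJ0 : 0 ≤ JT q lam i j 0 () := JT_nonneg hlo hneg i j 0 ()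
      have hle := JT_le_yT hlo hneg i j hij hk
      obtain ⟨κ, hκ⟩ : ∃ κ, κ = lam ^ 2 / (lam + 2 * ((1 - lam) / q)) := ⟨_, rfl⟩
      obtain ⟨J0, hJ⟩ : ∃ J0, J0 = JT q lam i j 0 () := ⟨_, rfl⟩
      rw [← hκ] at hk hc hle
      rw [← hJ] at hJ0 hle
      have hr0 : 0 ≤ κ * d := mul_nonneg hk hd.le
      have hx : Tendsto (fun n => (κ * d) ^ n) atTop (𝓝 0) :=
        tendsto_pow_atTop_nhds_zero_of_lt_one hr0 hc
      rw [← tendsto_add_atTop_iff_nat 1]
      refine tendsto_of_sq_le (C := 1 / 2 * d * J0)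
        (fun n => mGW_nonneg hd.le (tT_nonneg lam (n + 1) i j)) (fun n => ?_) hx
      have t0 := tT_nonneg lam (n + 1) i j
      have t1 := tT_le_one h0 h1 (n + 1) i j
      have s1 := sq_mGW_le hd.le t0 t1 (y := fun T => (tT q lam (n + 1) i j T) ^ 2)
        (fun T => pow_le_one₀ (t0 T) (t1 T)) (fun T => le_rfl)
      refine s1.trans ?_
      have sa := (summable_gw_mul hd.le (h := fun T => (tT q lam (n + 1) i j T) ^ 2)
        (fun T => sq_nonneg _) (fun T => pow_le_one₀ (t0 T) (t1 T))).hasSum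
      have sb := hasSum_cmul (hasSum_gw_sum hd.le (yT_nonneg hk hJ0 n) (hasSum_yT hd.le hk hJ0 n))
        (1 / 2)
      have hfin := hasSum_le (fun T => ?_) sa sb
      · have e3 : 1 / 2 * (d * ((κ * d) ^ n * J0)) = 1 / 2 * d * J0 * (κ * d) ^ n := by ring
        rw [e3] at hfin
        exact hfin
      · obtain ⟨k, t⟩ := T
        have h4 := tT_sq_le i j (n + 1) ⟨k, t⟩ (leafLawT_succ_pos hlo hneg n k t)
        rw [sk_leafLawT hlo hneg n k t i j] at h4
        have h5 : ∑ l, JT q lam i j n (t l) ≤ ∑ l, yT κ J0 n (t l) :=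
          Finset.sum_le_sum fun l _ => hle n (t l)
        have h6 : (tT q lam (n + 1) i j ⟨k, t⟩) ^ 2 ≤ 1 / 2 * ∑ l, yT κ J0 n (t l) := by
          linarith
        have h7 := mul_le_mul_of_nonneg_left h6 (gw_nonneg hd.le (n + 1) ⟨k, t⟩)
        show gw d (n + 1) ⟨k, t⟩ * (tT q lam (n + 1) i j ⟨k, t⟩) ^ 2 ≤
          1 / 2 * (gw d (n + 1) ⟨k, t⟩ * ∑ l, yT κ J0 n (t l))
        linarith
  have hs : Tendsto (fun n => ∑ i, ∑ j, mGW d n (tT q lam n i j)) atTop (𝓝 0) := by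
    have := tendsto_finsetSum (Finset.univ : Finset (Fin q)) fun i _ =>
      tendsto_finsetSum (Finset.univ : Finset (Fin q)) fun j _ => ht i j
    simpa using this
  refine squeeze_zero (fun n => tsum_nonneg fun T =>
    mul_nonneg (gw_nonneg hd.le n T) (aT_nonnegN h0 h1 n T)) (fun n => ?_) hs
  have hB : HasSum (fun T => ∑ i, ∑ j, gw d n T * tT q lam n i j T)
      (∑ i, ∑ j, mGW d n (tT q lam n i j)) :=
    hasSum_sum fun i _ => hasSum_sum fun j _ =>
      (summable_gw_mul hd.le (tT_nonneg lam n i j) (tT_le_one h0 h1 n i j)).hasSum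
  refine hasSum_le (fun T => ?_) (hsum n).hasSum hB
  have := mul_le_mul_of_nonneg_left (aT_le h0 h1 n T) (gw_nonneg hd.le n T)
  simp only [Finset.mul_sum] at this
  exact this

end Vale.Agent.P154C
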