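import Vale.Agent.P154.C.Reg
import Vale.Agent.P154.C.F3
import Vale.Agent.P154.C.F4
import Vale.Agent.P154.C.F5

/-! P154, symmetric entropy bound on the `d`-ary tree. -/

namespace Vale.Agent.P154C

open Vale.Agent.P154Q Filter Topology

variable {q : ℕ} [hq : Fact (2 ≤ q)]

theorem chan_pos {lam : ℝ} (hlo : 0 < lam + (1 - lam) / q) (hneg : lam ≤ 0) (i j : Fin q) :
    0 < chan q lam i j := by
  have h2 : 0 < (1 - lam) / q := div_pos (by linarith) q_pos
  unfold chan
  split_ifs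
  · linarith
  · linarith

theorem ov_self {X : Type} [Fintype X] (f : X → ℝ) : ov f f = ∑ x, f x := by
  unfold ov
  simp

theorem one_sub_ov_sq_le {X : Type} [Fintype X] (f g : X → ℝ) (hf : ∀ x, 0 < f x)
    (hg : ∀ x, 0 < g x) (sf : ∑ x, f x = 1) (sg : ∑ x, g x = 1) :
    (1 - ov f g) ^ 2 ≤ 1 / 2 * sk f g := by
  have h1 := sq_sum_abs_le f g hf hg sf sg
  rw [sum_abs_sub f g sf sg] at h1
  nlinarith

theorem sk_nonneg {X : Type} [Fintype X] (f g : X → ℝ) (hf : ∀ x, 0 < f x)
    (hg : ∀ x, 0 < g x) (sf : ∑ x, f x = 1) (sg : ∑ x, g x = 1) : 0 ≤ sk f g := by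
  have h1 := sq_sum_abs_le f g hf hg sf sg
  have h2 := sq_nonneg (∑ x, |f x - g x|)
  linarith

/-- law of the leaves below one child, given the spin of the parent -/
noncomputable def mReg (q d : ℕ) (lam : ℝ) (n : ℕ) (i : Fin q) (x : Config q d n) : ℝ :=
  ∑ s, chan q lam i s * leafLaw q d lam n s x

theorem mReg_pos {lam : ℝ} (d : ℕ) (hlo : 0 < lam + (1 - lam) / q) (hneg : lam ≤ 0) :
    ∀ (n : ℕ) (i : Fin q) (x : Config q d n), 0 < mReg q d lam n i x
  | 0, i, x => by
    have e : ∀ y : Fin q, ∑ s, chan q lam i s * (if y = s then (1 : ℝ) else 0) = chan q lam i y :=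
      fun y => by simp
    have e2 : mReg q d lam 0 i x = chan q lam i x := e x
    rw [e2]
    exact chan_pos hlo hneg i x
  | n + 1, i, x => by
    refine Finset.sum_pos (fun s _ => mul_pos (chan_pos hlo hneg i s) ?_) ⟨i, Finset.mem_univ i⟩
    exact Finset.prod_pos fun k _ => mReg_pos d hlo hneg n s (x k)

theorem mReg_sum (d : ℕ) (lam : ℝ) (n : ℕ) (i : Fin q) : ∑ x, mReg q d lam n i x = 1 := by
  unfold mReg
  rw [Finset.sum_comm]
  simp only [← Finset.mul_sum, leafLaw_sum d lam n, mul_one, chan_sum]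

theorem leafLaw_succ_pos {lam : ℝ} (d : ℕ) (hlo : 0 < lam + (1 - lam) / q) (hneg : lam ≤ 0)
    (n : ℕ) (i : Fin q) (c : Config q d (n + 1)) : 0 < leafLaw q d lam (n + 1) i c :=
  Finset.prod_pos fun k _ => mReg_pos d hlo hneg n i (c k)

noncomputable def JReg (q d : ℕ) (lam : ℝ) (n : ℕ) (i j : Fin q) : ℝ :=
  sk (mReg q d lam n i) (mReg q d lam n j)

theorem sk_leafLaw {lam : ℝ} (d : ℕ) (hlo : 0 < lam + (1 - lam) / q) (hneg : lam ≤ 0)
    (n : ℕ) (i j : Fin q) :
    sk (leafLaw q d lam (n + 1) i) (leafLaw q d lam (n + 1) j) = d * JReg q d lam n i j := by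
  have h := sk_pi (k := d) (X := fun _ => Config q d n) (fun _ => mReg q d lam n i)
    (fun _ => mReg q d lam n j) (fun _ => mReg_pos d hlo hneg n i)
    (fun _ => mReg_pos d hlo hneg n j) (fun _ => mReg_sum d lam n i) (fun _ => mReg_sum d lam n j)
  simp only [Finset.sum_const, Finset.card_univ, Fintype.card_fin, nsmul_eq_mul] at h
  exact h

theorem JReg_succ_le {lam : ℝ} (d : ℕ) (hlo : 0 < lam + (1 - lam) / q) (hneg : lam ≤ 0)
    (n : ℕ) (i j : Fin q) (hij : i ≠ j) :
    JReg q d lam (n + 1) i j ≤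
      lam ^ 2 / (lam + 2 * ((1 - lam) / q)) * (d * JReg q d lam n i j) := by
  rw [← sk_leafLaw d hlo hneg n i j]
  exact sk_mix_le hlo hneg (leafLaw q d lam (n + 1)) (leafLaw_succ_pos d hlo hneg n) i j hij

theorem JReg_nonneg {lam : ℝ} (d : ℕ) (hlo : 0 < lam + (1 - lam) / q) (hneg : lam ≤ 0)
    (n : ℕ) (i j : Fin q) : 0 ≤ JReg q d lam n i j :=
  sk_nonneg _ _ (mReg_pos d hlo hneg n i) (mReg_pos d hlo hneg n j) (mReg_sum d lam n i)
    (mReg_sum d lam n j)

/-- symmetric entropy bound: nonreconstruction on the `d`-ary tree for `lam ≤ 0` whenever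
`d * lam ^ 2 / (lam + 2 (1 - lam) / q) < 1` -/
theorem regular_entropy (d : ℕ) (lam : ℝ) (h0 : -(1 / ((q : ℝ) - 1)) ≤ lam)
    (hlo : 0 < lam + (1 - lam) / q) (hneg : lam ≤ 0)
    (hc : lam ^ 2 / (lam + 2 * ((1 - lam) / q)) * d < 1) :
    Tendsto (aSeq q d lam) atTop (𝓝 0) := by
  have h1 : lam ≤ 1 := by linarith
  have hb : 0 < (1 - lam) / q := div_pos (by linarith) q_pos
  have hk : 0 ≤ lam ^ 2 / (lam + 2 * ((1 - lam) / q)) := div_nonneg (sq_nonneg _) (by linarith)
  obtain ⟨κ, hκ⟩ : ∃ κ, κ = lam ^ 2 / (lam + 2 * ((1 - lam) / q)) := ⟨_, rfl⟩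
  rw [← hκ] at hk hc
  have hr0 : 0 ≤ κ * d := mul_nonneg hk (Nat.cast_nonneg d)
  have ht : ∀ i j : Fin q, Tendsto (fun n => tReg q d lam n i j) atTop (𝓝 0) := by
    intro i j
    by_cases hij : i = j
    · subst hij
      have : ∀ n, tReg q d lam n i i = 0 := fun n => by
        unfold tReg
        rw [ov_self, leafLaw_sum]
        ring
      simp only [this]
      exact tendsto_const_nhds
    · have hJ : ∀ n, JReg q d lam n i j ≤ (κ * d) ^ n * JReg q d lam 0 i j := by
        intro n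
        induction n with
        | zero => simp
        | succ n ih =>
          have h2 := JReg_succ_le d hlo hneg n i j hij
          rw [← hκ] at h2
          have h3 := mul_le_mul_of_nonneg_left ih hr0
          calc JReg q d lam (n + 1) i j ≤ κ * (d * JReg q d lam n i j) := h2
            _ = κ * d * JReg q d lam n i j := by ring
            _ ≤ κ * d * ((κ * d) ^ n * JReg q d lam 0 i j) := h3
            _ = (κ * d) ^ (n + 1) * JReg q d lam 0 i j := by ring
      have hx : Tendsto (fun n => (κ * d) ^ n) atTop (𝓝 0) :=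
        tendsto_pow_atTop_nhds_zero_of_lt_one hr0 hc
      rw [← tendsto_add_atTop_iff_nat 1]
      refine tendsto_of_sq_le (C := 1 / 2 * d * JReg q d lam 0 i j)
        (fun n => tReg_nonneg d lam (n + 1) i j) (fun n => ?_) hx
      have h4 := one_sub_ov_sq_le _ _ (leafLaw_succ_pos d hlo hneg n i)
        (leafLaw_succ_pos d hlo hneg n j) (leafLaw_sum d lam (n + 1) i) (leafLaw_sum d lam (n + 1) j)
      rw [sk_leafLaw d hlo hneg n i j] at h4
      have h5 := mul_le_mul_of_nonneg_left (hJ n) (Nat.cast_nonneg (α := ℝ) d)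
      unfold tReg
      nlinarith
  have hs : Tendsto (fun n => ∑ i, ∑ j, tReg q d lam n i j) atTop (𝓝 0) := by
    have := tendsto_finsetSum (Finset.univ : Finset (Fin q)) fun i _ =>
      tendsto_finsetSum (Finset.univ : Finset (Fin q)) fun j _ => ht i j
    simpa using this
  exact squeeze_zero (aSeq_nonneg d h0 h1) (aSeq_le d h0 h1) hs

end Vale.Agent.P154C
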