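import Vale.Agent.P154.C.FGW
import Vale.Agent.P154.Q.Inst3
import Vale.Agent.P154.Q.Perm4

/-! P154, symmetric entropy bound for three and four states, in explicit form. -/

namespace Vale.Agent.P154C

open Vale.Agent.P154Q Filter Topology
open Vale.Agent.P154 (gw)

theorem ent3_aux {d lam : ℝ} (hlo : -(1 / 2) < lam) (hc : 3 * d * lam ^ 2 < 2 + lam) :
    -(1 / (((3 : ℕ) : ℝ) - 1)) ≤ lam ∧ 0 < lam + (1 - lam) / ((3 : ℕ) : ℝ) ∧
      lam ^ 2 / (lam + 2 * ((1 - lam) / ((3 : ℕ) : ℝ))) * d < 1 := by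
  refine ⟨by norm_num; linarith, by norm_num; linarith, ?_⟩
  have h : (0 : ℝ) < lam + 2 * ((1 - lam) / ((3 : ℕ) : ℝ)) := by norm_num; linarith
  rw [div_mul_eq_mul_div, div_lt_one h]
  norm_num
  linarith

theorem ent4_aux {d lam : ℝ} (hlo : -(1 / 3) < lam) (hc : 2 * d * lam ^ 2 < 1 + lam) :
    -(1 / (((4 : ℕ) : ℝ) - 1)) ≤ lam ∧ 0 < lam + (1 - lam) / ((4 : ℕ) : ℝ) ∧
      lam ^ 2 / (lam + 2 * ((1 - lam) / ((4 : ℕ) : ℝ))) * d < 1 := by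
  refine ⟨by norm_num; linarith, by norm_num; linarith, ?_⟩
  have h : (0 : ℝ) < lam + 2 * ((1 - lam) / ((4 : ℕ) : ℝ)) := by norm_num; linarith
  rw [div_mul_eq_mul_div, div_lt_one h]
  norm_num
  linarith

theorem ent3_reg (d : ℕ) {lam : ℝ} (hlo : -(1 / 2) < lam) (hneg : lam ≤ 0)
    (hc : 3 * (d : ℝ) * lam ^ 2 < 2 + lam) : Tendsto (aSeq 3 d lam) atTop (𝓝 0) := by
  obtain ⟨a, b, c⟩ := ent3_aux hlo hc
  exact regular_entropy d lam a b hneg c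

theorem ent4_reg (d : ℕ) {lam : ℝ} (hlo : -(1 / 3) < lam) (hneg : lam ≤ 0)
    (hc : 2 * (d : ℝ) * lam ^ 2 < 1 + lam) : Tendsto (aSeq 4 d lam) atTop (𝓝 0) := by
  obtain ⟨a, b, c⟩ := ent4_aux hlo hc
  exact regular_entropy d lam a b hneg c

theorem ent3_gw {d lam : ℝ} (hd : 0 < d) (hlo : -(1 / 2) < lam) (hneg : lam ≤ 0)
    (hc : 3 * d * lam ^ 2 < 2 + lam) :
    (∀ n, Summable fun T => gw d n T * aT 3 lam n T) ∧ Tendsto (aGW 3 d lam) atTop (𝓝 0) := by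
  obtain ⟨a, b, c⟩ := ent3_aux hlo hc
  exact gw_entropy hd a b hneg c

theorem ent4_gw {d lam : ℝ} (hd : 0 < d) (hlo : -(1 / 3) < lam) (hneg : lam ≤ 0)
    (hc : 2 * d * lam ^ 2 < 1 + lam) :
    (∀ n, Summable fun T => gw d n T * aT 4 lam n T) ∧ Tendsto (aGW 4 d lam) atTop (𝓝 0) := by
  obtain ⟨a, b, c⟩ := ent4_aux hlo hc
  exact gw_entropy hd a b hneg c

end Vale.Agent.P154C
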