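import Vale.Agent.P154.C.Defs

namespace Vale.Agent.P154C

/-- [R1] overlap of product functions.  Proof: `Finset.prod_univ_sum` (with `Fintype.piFinset_univ`) turns the product of the
sums `∑ x, min (f j x) (g j x)` into `∑ c, ∏ j, min (f j (c j)) (g j (c j))`; then termwise
`∏ min ≤ min (∏ f) (∏ g)` by `le_min` and `Finset.prod_le_prod` (`le_min (hf ..) (hg ..)` for nonnegativity, `min_le_left/right`). -/
theorem prod_ov_le {k : ℕ} {X : Fin k → Type} [∀ j, Fintype (X j)] (f g : ∀ j, X j → ℝ)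
    (hf : ∀ j x, 0 ≤ f j x) (hg : ∀ j x, 0 ≤ g j x) :
    ∏ j, ov (f j) (g j) ≤
      ov (fun c : ∀ j, X j => ∏ j, f j (c j)) (fun c : ∀ j, X j => ∏ j, g j (c j)) := by
  classical
  unfold ov
  rw [Finset.prod_univ_sum, Fintype.piFinset_univ]
  refine Finset.sum_le_sum (fun c _ => ?_)
  refine le_min ?_ ?_
  · exact Finset.prod_le_prod (fun j _ => le_min (hf j _) (hg j _)) (fun j _ => min_le_left _ _)
  · exact Finset.prod_le_prod (fun j _ => le_min (hf j _) (hg j _)) (fun j _ => min_le_right _ _)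

end Vale.Agent.P154C
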