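import Vale.Agent.P154.C.Defs

namespace Vale.Agent.P154C

open Vale.Agent.P154Q (chan)

/-- [R2a] `∑ |f - g| = 2 - 2 ov f g` for functions of total mass one (`|a - b| = a + b - 2 min a b`). -/
theorem sum_abs_sub {X : Type} [Fintype X] (f g : X → ℝ) (hf : ∑ x, f x = 1) (hg : ∑ x, g x = 1) :
    ∑ x, |f x - g x| = 2 - 2 * ov f g := by
  unfold ov
  have h : ∀ x, |f x - g x| = f x + g x - 2 * min (f x) (g x) := by
    intro x
    rcases le_total (f x) (g x) with h | h
    · rw [min_eq_left h, abs_of_nonpos (by linarith)]; ring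
    · rw [min_eq_right h, abs_of_nonneg (by linarith)]; ring
  simp only [h]
  rw [Finset.sum_sub_distrib, Finset.sum_add_distrib, hf, hg, ← Finset.mul_sum]
  norm_num

/-- [R2b] overlap after one step of the Potts channel.  With `m_i x = ∑ s, chan i s * L s x = lam * L i x + (1-lam)/q * ∑ s, L s x`:
`m_i - m_j = lam (L i - L j)`, `∑ x, m_i x = 1`, `min a b = (a + b - |a - b|)/2`; use `sum_abs_sub`. -/
theorem ov_mix {q : ℕ} {X : Type} [Fintype X] (hq : 0 < q) (lam : ℝ) (L : Fin q → X → ℝ)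
    (hs : ∀ s, ∑ x, L s x = 1) (i j : Fin q) :
    ov (fun x => ∑ s, chan q lam i s * L s x) (fun x => ∑ s, chan q lam j s * L s x)
      = 1 - |lam| * (1 - ov (L i) (L j)) := by
  have hq' : (q : ℝ) ≠ 0 := by exact_mod_cast hq.ne'
  have hm : ∀ (i : Fin q) (x : X), ∑ s, chan q lam i s * L s x
      = lam * L i x + (1 - lam) / q * ∑ s, L s x := by
    intro i x
    unfold chan
    simp_rw [add_mul]
    rw [Finset.sum_add_distrib, ← Finset.mul_sum]
    congr 1
    simp_rw [mul_assoc, ite_mul, one_mul, zero_mul]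
    rw [← Finset.mul_sum, Finset.sum_ite_eq]
    simp
  have hsum : ∀ i, ∑ x, ∑ s, chan q lam i s * L s x = 1 := by
    intro i
    simp_rw [hm]
    rw [Finset.sum_add_distrib, ← Finset.mul_sum, ← Finset.mul_sum, hs i, Finset.sum_comm]
    simp_rw [hs]
    rw [Finset.sum_const, Finset.card_univ, Fintype.card_fin, nsmul_eq_mul]
    field_simp
    ring
  have h1 := sum_abs_sub _ _ (hsum i) (hsum j)
  have h2 := sum_abs_sub _ _ (hs i) (hs j)
  have h3 : ∑ x, |(∑ s, chan q lam i s * L s x) - ∑ s, chan q lam j s * L s x|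
      = |lam| * ∑ x, |L i x - L j x| := by
    rw [Finset.mul_sum]
    apply Finset.sum_congr rfl
    intro x _
    rw [hm, hm, ← abs_mul]
    congr 1
    ring
  rw [h3, h2] at h1
  linarith

end Vale.Agent.P154C
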