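import Vale.Agent.P154.C.R2

namespace Vale.Agent.P154C

/-- [R3] the distance of the posterior from uniform is bounded by the pairwise total variation distances.
Per `c`, with `M = ∑ i, (1/q) L i c ≥ 0`: if `M = 0` the term is `0`; otherwise
`M * |(1/q) L i c / M - 1/q| = (1/q) |L i c - M| ≤ (1/q) ∑ j, (1/q) |L i c - L j c| ≤ ∑ j, |L i c - L j c|`.
Sum over `c` and use `sum_abs_sub` ([R2a], may be used as a black box). -/
theorem a_le {q : ℕ} {X : Type} [Fintype X] (hq : 0 < q) (L : Fin q → X → ℝ)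
    (h0 : ∀ s x, 0 ≤ L s x) (hs : ∀ s, ∑ x, L s x = 1) :
    ∑ c, (∑ i : Fin q, (1 / (q : ℝ)) * L i c) *
        ((1 / 2) * ∑ i : Fin q,
          |(1 / (q : ℝ)) * L i c / (∑ i : Fin q, (1 / (q : ℝ)) * L i c) - 1 / q|)
      ≤ ∑ i : Fin q, ∑ j : Fin q, (1 - ov (L i) (L j)) := by
  have hq' : (0 : ℝ) < q := by exact_mod_cast hq
  have hq1 : (1 : ℝ) ≤ q := by exact_mod_cast hq
  have hinv : (1 / (q : ℝ)) ≤ 1 := by rw [div_le_one hq']; exact hq1
  have hinv0 : 0 ≤ (1 / (q : ℝ)) := by positivity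
  have hcard : ∑ _j : Fin q, (1 / (q : ℝ)) = 1 := by
    rw [Finset.sum_const, Finset.card_univ, Fintype.card_fin, nsmul_eq_mul]
    field_simp
  have key : ∀ (c : X) (i : Fin q), (∑ i : Fin q, (1 / (q : ℝ)) * L i c) *
      |(1 / (q : ℝ)) * L i c / (∑ i : Fin q, (1 / (q : ℝ)) * L i c) - 1 / q|
        ≤ ∑ j : Fin q, |L i c - L j c| := by
    intro c i
    have e2 : L i c - (∑ i : Fin q, (1 / (q : ℝ)) * L i c)
        = ∑ j : Fin q, (1 / (q : ℝ)) * (L i c - L j c) := by
      simp_rw [mul_sub]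
      rw [Finset.sum_sub_distrib, ← Finset.sum_mul, hcard, one_mul]
    generalize (∑ i : Fin q, (1 / (q : ℝ)) * L i c) = M at e2 ⊢
    have hS0 : 0 ≤ ∑ j : Fin q, |L i c - L j c| := Finset.sum_nonneg (fun j _ => abs_nonneg _)
    by_cases hM : M = 0
    · rw [hM, zero_mul]; exact hS0
    · have e1 : M * |(1 / (q : ℝ)) * L i c / M - 1 / q| ≤ |(1 / (q : ℝ)) * (L i c - M)| := by
        have e3 : (1 / (q : ℝ)) * (L i c - M) = M * ((1 / (q : ℝ)) * L i c / M - 1 / q) := by
          field_simp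
        rw [e3, abs_mul]
        exact mul_le_mul_of_nonneg_right (le_abs_self M) (abs_nonneg _)
      refine le_trans e1 ?_
      rw [e2, abs_mul, abs_of_nonneg hinv0]
      have h3 : |∑ j : Fin q, (1 / (q : ℝ)) * (L i c - L j c)|
          ≤ ∑ j : Fin q, |L i c - L j c| := by
        refine le_trans (Finset.abs_sum_le_sum_abs _ _) ?_
        apply Finset.sum_le_sum
        intro j _
        rw [abs_mul, abs_of_nonneg hinv0]
        exact mul_le_of_le_one_left (abs_nonneg _) hinv
      calc (1 / (q : ℝ)) * |∑ j : Fin q, (1 / (q : ℝ)) * (L i c - L j c)|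
          ≤ 1 * |∑ j : Fin q, (1 / (q : ℝ)) * (L i c - L j c)| :=
            mul_le_mul_of_nonneg_right hinv (abs_nonneg _)
        _ ≤ ∑ j : Fin q, |L i c - L j c| := by rw [one_mul]; exact h3
  calc _ ≤ ∑ c, (1 / 2 : ℝ) * ∑ i : Fin q, ∑ j : Fin q, |L i c - L j c| := by
        apply Finset.sum_le_sum
        intro c _
        rw [mul_left_comm, Finset.mul_sum]
        apply mul_le_mul_of_nonneg_left _ (by norm_num)
        exact Finset.sum_le_sum (fun i _ => key c i)
    _ = ∑ i : Fin q, ∑ j : Fin q, (1 - ov (L i) (L j)) := by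
        rw [← Finset.mul_sum, Finset.sum_comm, Finset.mul_sum]
        apply Finset.sum_congr rfl
        intro i _
        rw [Finset.sum_comm, Finset.mul_sum]
        apply Finset.sum_congr rfl
        intro j _
        rw [sum_abs_sub (L i) (L j) (hs i) (hs j)]
        ring

end Vale.Agent.P154C
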