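import Vale.Agent.P154.C.Defs

namespace Vale.Agent.P154C

/-- [R4] induction on `d` from `d = 2` (`Nat.le_induction`): multiply the induction hypothesis by `1 - x ≥ 0`; `nlinarith`. -/
theorem pow_lower (d : ℕ) (hd : 2 ≤ d) {x : ℝ} (h0 : 0 ≤ x) (h1 : x ≤ 1) :
    1 - d * x + x ^ 2 ≤ (1 - x) ^ d := by
  induction d, hd using Nat.le_induction with
  | base =>
    have : (1 - x) ^ 2 = 1 - 2 * x + x ^ 2 := by ring
    rw [this]
    push_cast
    exact le_refl _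
  | succ n hn ih =>
    have h2 : (2 : ℝ) ≤ n := by exact_mod_cast hn
    have h3 : 0 ≤ 1 - x := by linarith
    have h4 : (1 - n * x + x ^ 2) * (1 - x) ≤ (1 - x) ^ n * (1 - x) :=
      mul_le_mul_of_nonneg_right ih h3
    have h5 : 0 ≤ x ^ 2 * (n - x) := mul_nonneg (sq_nonneg x) (by linarith)
    have h6 : (1 - x) ^ (n + 1) = (1 - x) ^ n * (1 - x) := pow_succ _ _
    rw [h6]
    push_cast
    have h7 : (1 - n * x + x ^ 2) * (1 - x) = 1 - (n + 1) * x + x ^ 2 + x ^ 2 * (n - x) := by ring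
    linarith

/-- [R5] `exp (-y) = exp (-y/2) ^ 2 ≥ (1 - y/2) ^ 2` (`Real.add_one_le_exp`, `pow_le_pow_left₀`). -/
theorem exp_lower {y : ℝ} (h0 : 0 ≤ y) (h1 : y ≤ 2) : 1 - Real.exp (-y) ≤ y - y ^ 2 / 4 := by
  have e1 : Real.exp (-y) = Real.exp (-y / 2) ^ 2 := by
    rw [← Real.exp_nat_mul]
    congr 1
    push_cast
    ring
  have e2 : 1 - y / 2 ≤ Real.exp (-y / 2) := by
    have := Real.add_one_le_exp (-y / 2)
    linarith
  have e3 : (1 - y / 2) ^ 2 ≤ Real.exp (-y / 2) ^ 2 := pow_le_pow_left₀ (by linarith) e2 2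
  rw [e1]
  nlinarith

end Vale.Agent.P154C
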