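import Vale.Agent.P154.C.R1
import Vale.Agent.P154.C.R3
import Vale.Agent.P154.C.R4
import Vale.Agent.P154.N.GWN
import Vale.Agent.P154.Q.Regular

/-! P154, coupling bound on the `d`-ary tree: `d |lam| ≤ 1` implies nonreconstruction. -/

namespace Vale.Agent.P154C

open Vale.Agent.P154Q Filter Topology

theorem ov_nonneg {X : Type} [Fintype X] {f g : X → ℝ} (hf : ∀ x, 0 ≤ f x) (hg : ∀ x, 0 ≤ g x) :
    0 ≤ ov f g := Finset.sum_nonneg fun x _ => le_min (hf x) (hg x)

theorem ov_le {X : Type} [Fintype X] (f g : X → ℝ) : ov f g ≤ ∑ x, f x :=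
  Finset.sum_le_sum fun x _ => min_le_left _ _

variable {q : ℕ} [hq : Fact (2 ≤ q)]

theorem q_pos' : 0 < q := lt_of_lt_of_le (by norm_num) hq.out

theorem leafLaw_nonneg {lam : ℝ} (d : ℕ) (h0 : -(1 / ((q : ℝ) - 1)) ≤ lam) (h1 : lam ≤ 1) :
    ∀ (n : ℕ) (i : Fin q) (c : Config q d n), 0 ≤ leafLaw q d lam n i c
  | 0, i, c => by
    show 0 ≤ (if (show Fin q from c) = i then (1 : ℝ) else 0)
    split_ifs <;> norm_num
  | n + 1, i, c =>
    Finset.prod_nonneg fun k _ => Finset.sum_nonneg fun s _ =>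
      mul_nonneg (chan_nonnegN h0 h1 i s) (leafLaw_nonneg d h0 h1 n s (c k))

theorem leafLaw_sum (d : ℕ) (lam : ℝ) : ∀ (n : ℕ) (i : Fin q), ∑ c, leafLaw q d lam n i c = 1
  | 0, i => by
    show ∑ c : Fin q, (if c = i then (1 : ℝ) else 0) = 1
    simp
  | n + 1, i => by
    show ∑ c : Fin d → Config q d n,
      ∏ k : Fin d, ∑ s : Fin q, chan q lam i s * leafLaw q d lam n s (c k) = 1
    have h := Finset.prod_univ_sum (fun _ : Fin d => (Finset.univ : Finset (Config q d n)))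
      (fun _ cj => ∑ s : Fin q, chan q lam i s * leafLaw q d lam n s cj)
    rw [Fintype.piFinset_univ] at h
    rw [← h]
    refine Finset.prod_eq_one fun j _ => ?_
    rw [Finset.sum_comm]
    simp only [← Finset.mul_sum, leafLaw_sum d lam n, mul_one, chan_sum]

/-- total variation distance between the laws of the leaves for the root spins `i`, `j` -/
noncomputable def tReg (q d : ℕ) (lam : ℝ) (n : ℕ) (i j : Fin q) : ℝ :=
  1 - ov (leafLaw q d lam n i) (leafLaw q d lam n j)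

theorem tReg_nonneg (d : ℕ) (lam : ℝ) (n : ℕ) (i j : Fin q) : 0 ≤ tReg q d lam n i j := by
  have := ov_le (leafLaw q d lam n i) (leafLaw q d lam n j)
  rw [leafLaw_sum] at this
  unfold tReg
  linarith

theorem tReg_le_one {lam : ℝ} (d : ℕ) (h0 : -(1 / ((q : ℝ) - 1)) ≤ lam) (h1 : lam ≤ 1) (n : ℕ)
    (i j : Fin q) : tReg q d lam n i j ≤ 1 := by
  have := ov_nonneg (leafLaw_nonneg d h0 h1 n i) (leafLaw_nonneg d h0 h1 n j)
  unfold tReg
  linarith

theorem tReg_succ_le {lam : ℝ} (d : ℕ) (h0 : -(1 / ((q : ℝ) - 1)) ≤ lam) (h1 : lam ≤ 1) (n : ℕ)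
    (i j : Fin q) :
    tReg q d lam (n + 1) i j ≤ 1 - (1 - |lam| * tReg q d lam n i j) ^ d := by
  have hm : ∀ (a : Fin q) (x : Config q d n), 0 ≤ ∑ s, chan q lam a s * leafLaw q d lam n s x :=
    fun a x => Finset.sum_nonneg fun s _ =>
      mul_nonneg (chan_nonnegN h0 h1 a s) (leafLaw_nonneg d h0 h1 n s x)
  have key := prod_ov_le (k := d) (X := fun _ => Config q d n)
    (fun _ x => ∑ s, chan q lam i s * leafLaw q d lam n s x)
    (fun _ x => ∑ s, chan q lam j s * leafLaw q d lam n s x) (fun _ => hm i) (fun _ => hm j)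
  simp only [ov_mix q_pos' lam (leafLaw q d lam n) (leafLaw_sum d lam n) i j, Finset.prod_const,
    Finset.card_univ, Fintype.card_fin] at key
  have e : tReg q d lam (n + 1) i j = 1 - ov (fun c : Fin d → Config q d n =>
      ∏ k, ∑ s, chan q lam i s * leafLaw q d lam n s (c k)) (fun c : Fin d → Config q d n =>
      ∏ k, ∑ s, chan q lam j s * leafLaw q d lam n s (c k)) := rfl
  rw [e]
  unfold tReg
  linarith

theorem aSeq_nonneg {lam : ℝ} (d : ℕ) (h0 : -(1 / ((q : ℝ) - 1)) ≤ lam) (h1 : lam ≤ 1) (n : ℕ) :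
    0 ≤ aSeq q d lam n :=
  Finset.sum_nonneg fun c _ => mul_nonneg
    (Finset.sum_nonneg fun i _ => mul_nonneg (div_pos one_pos q_pos).le (leafLaw_nonneg d h0 h1 n i c))
    (mul_nonneg (by norm_num) (Finset.sum_nonneg fun i _ => abs_nonneg _))

theorem aSeq_le {lam : ℝ} (d : ℕ) (h0 : -(1 / ((q : ℝ) - 1)) ≤ lam) (h1 : lam ≤ 1) (n : ℕ) :
    aSeq q d lam n ≤ ∑ i, ∑ j, tReg q d lam n i j :=
  a_le q_pos' (leafLaw q d lam n) (leafLaw_nonneg d h0 h1 n) (leafLaw_sum d lam n)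

/-- coupling bound: nonreconstruction on the `d`-ary tree, `d ≥ 2`, whenever `d |lam| ≤ 1` -/
theorem regular_coupling (d : ℕ) (hd : 2 ≤ d) (lam : ℝ) (h0 : -(1 / ((q : ℝ) - 1)) ≤ lam)
    (h1 : lam ≤ 1) (hne : lam ≠ 0) (hc : (d : ℝ) * |lam| ≤ 1) :
    Tendsto (aSeq q d lam) atTop (𝓝 0) := by
  have hd' : (2 : ℝ) ≤ d := by exact_mod_cast hd
  have hl0 : 0 ≤ |lam| := abs_nonneg lam
  have hl1 : |lam| ≤ 1 := by nlinarith
  have ht : ∀ i j : Fin q, Tendsto (fun n => tReg q d lam n i j) atTop (𝓝 0) := by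
    intro i j
    refine tendsto_zero_of_rec_pow (c := lam ^ 2) (m := 2) (by positivity)
      (fun n => tReg_nonneg d lam n i j) fun n => ?_
    have t0 := tReg_nonneg d lam n i j
    have t1 := tReg_le_one d h0 h1 n i j
    have hx0 : 0 ≤ |lam| * tReg q d lam n i j := mul_nonneg hl0 t0
    have hx1 : |lam| * tReg q d lam n i j ≤ 1 := by nlinarith
    have h2 := pow_lower d hd hx0 hx1
    have h3 := tReg_succ_le d h0 h1 n i j
    have h4 : (|lam| * tReg q d lam n i j) ^ 2 = lam ^ 2 * tReg q d lam n i j ^ 2 := by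
      rw [mul_pow, sq_abs]
    have h5 : (d : ℝ) * (|lam| * tReg q d lam n i j) ≤ tReg q d lam n i j := by
      have := mul_le_mul_of_nonneg_right hc t0
      linarith
    linarith
  have hs : Tendsto (fun n => ∑ i, ∑ j, tReg q d lam n i j) atTop (𝓝 0) := by
    have := tendsto_finsetSum (Finset.univ : Finset (Fin q)) fun i _ =>
      tendsto_finsetSum (Finset.univ : Finset (Fin q)) fun j _ => ht i j
    simpa using this
  exact squeeze_zero (aSeq_nonneg d h0 h1) (aSeq_le d h0 h1) hs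

end Vale.Agent.P154C
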